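import Vale.Agent.P263.S.KunB
import Vale.Agent.P263.S.Five
import Vale.Agent.P263.E.ProdRange
import Vale.Agent.P263.E.PTr
import Vale.Agent.P263.TJ.SqCc
import Mathlib.LinearAlgebra.TensorProduct.Basis

/-!
# P263, block V5-C: the Künneth theorem for functions on a product of simplicial sets

* `chi Y A : A ⊗ F(Y) → fnS Y A` (functions on `Y` with values in `A`).
* `chi_surj` : it is surjective in cohomology if `A` is of finite type.
* `kun_prod` : a homogeneous cocycle of `X × Y`, `H^j(X)` finite, is a finite sum of exterior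
  products of homogeneous cocycles and a coboundary.
-/

noncomputable section

open scoped TensorProduct

namespace Vale.Agent.P263.FR

open Vale.Agent.P263.S Vale.Agent.P263.E CosMod Kun

/-- the pairing `(a, f) ↦ (y ↦ f y • a)` -/
def nuB (Y : SS) (A : CosMod (ZMod 2)) : Bil A (SS.F (ZMod 2) Y) (fnS Y A) where
  app p := LinearMap.mk₂ (ZMod 2) (fun (a : A.obj p) (f : Y.obj p → ZMod 2) =>
      (fun y => f y • a : Y.obj p → A.obj p))
    (fun a a' f => by funext y; exact smul_add _ _ _)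
    (fun r a f => by funext y; exact smul_comm _ _ _)
    (fun a f g => by funext y; exact add_smul _ _ _)
    (fun r a f => by funext y; exact mul_smul _ _ _)
  nat {p q} f a g := by
    funext y
    exact (map_smul (A.map f) (g (Y.map f y)) a).symm

/-- `a ⊗ f ↦ (y ↦ f y • a)` -/
def chi (Y : SS) (A : CosMod (ZMod 2)) : Hom (tensor A (SS.F (ZMod 2) Y)) (fnS Y A) :=
  (nuB Y A).lift

theorem chi_tmul (Y : SS) (A : CosMod (ZMod 2)) {p : ℕ} (a : A.obj p) (f : Y.obj p → ZMod 2) :
    (chi Y A).app p (a ⊗ₜ[ZMod 2] f) = fun y => f y • a := rfl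

theorem chi_nat (Y : SS) {A B : CosMod (ZMod 2)} (φ : Hom A B) (p : ℕ)
    (x : (tensor A (SS.F (ZMod 2) Y)).obj p) :
    (chi Y B).app p ((φ.tens (Hom.id _)).app p x) = (fnS.mapHom Y φ).app p ((chi Y A).app p x) := by
  have h : ((chi Y B).app p).comp ((φ.tens (Hom.id (SS.F (ZMod 2) Y))).app p) =
      ((fnS.mapHom Y φ).app p).comp ((chi Y A).app p) := by
    apply TensorProduct.ext'
    intro a g
    funext y
    exact (map_smul (φ.app p) (g y) a).symm
  exact LinearMap.congr_fun h x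

/-- the map of short exact sequences -/
def chiSES (Y : SS) {A B C : CosMod (ZMod 2)} (S : SES A B C) :
    SESHom (S.tens (SS.F (ZMod 2) Y)) (fnS.ses Y S) where
  fA := chi Y A
  fB := chi Y B
  fC := chi Y C
  hi _ x := chi_nat Y S.i _ x
  hp _ x := chi_nat Y S.p _ x

/-- the Künneth map for constant coefficients, in terms of a basis -/
theorem lift_smul_bij {S V : Type} [AddCommGroup V] [Module (ZMod 2) V]
    [Module.Finite (ZMod 2) V] (ψ : V ⊗[ZMod 2] (S → ZMod 2) →ₗ[ZMod 2] (S → V))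
    (hψ : ∀ v f, ψ (v ⊗ₜ[ZMod 2] f) = fun y => f y • v) : Function.Bijective ψ := by
  classical
  obtain ⟨b⟩ : Nonempty (Module.Basis (Fin (Module.finrank (ZMod 2) V)) (ZMod 2) V) :=
    ⟨Module.finBasis (ZMod 2) V⟩
  have h5 : ∀ c : Fin (Module.finrank (ZMod 2) V) → S → ZMod 2,
      ψ (∑ i, b i ⊗ₜ[ZMod 2] c i) = fun y => ∑ i, c i y • b i := by
    intro c
    rw [map_sum]
    funext y
    rw [Finset.sum_apply]
    refine Finset.sum_congr rfl fun i _ => ?_
    rw [hψ]
  constructor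
  · rw [injective_iff_map_eq_zero]
    intro x hx
    obtain ⟨c, rfl⟩ := TensorProduct.eq_repr_basis_left b x
    have h4 : (c.sum fun i n => (b i ⊗ₜ[ZMod 2] n : V ⊗[ZMod 2] (S → ZMod 2))) =
        ∑ i, b i ⊗ₜ[ZMod 2] c i := Finsupp.sum_fintype _ _ fun i => TensorProduct.tmul_zero _ _
    rw [h4, h5] at hx
    have h6 := b.linearIndependent
    rw [Fintype.linearIndependent_iff] at h6
    have h7 : c = 0 := Finsupp.ext fun i => funext fun y =>
      h6 (fun i => c i y) (congrFun hx y) i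
    rw [h7, Finsupp.sum_zero_index]
  · intro F
    refine ⟨∑ i, b i ⊗ₜ[ZMod 2] (fun y => b.repr (F y) i), ?_⟩
    rw [h5]
    funext y
    exact b.sum_repr (F y)

/-- constant coefficients of finite dimension -/
theorem chi_const_bij (Y : SS) (V : Type) [AddCommGroup V] [Module (ZMod 2) V]
    [hV : Module.Finite (ZMod 2) V] (p : ℕ) : Function.Bijective ((chi Y (const V)).app p) := by
  obtain ⟨ψ, hψ⟩ : ∃ ψ : V ⊗[ZMod 2] (Y.obj p → ZMod 2) →ₗ[ZMod 2] (Y.obj p → V),
    ψ = (chi Y (const V)).app p := ⟨_, rfl⟩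
  have h1 : Function.Bijective ψ := lift_smul_bij ψ (by
    rw [hψ]
    intro _ _
    rfl)
  rw [hψ] at h1
  exact h1

theorem chi_const (Y : SS) (V : Type) [AddCommGroup V] [Module (ZMod 2) V]
    [Module.Finite (ZMod 2) V] (n : ℕ) : Function.Bijective ((chi Y (const V)).mapH n) :=
  Hom.mapH_bijective _ (fun p => chi_const_bij Y V p) n

/-! ### the induction -/

theorem finite_Z0 (A : CosMod (ZMod 2)) (h : Module.Finite (ZMod 2) (A.H 0)) :
    Module.Finite (ZMod 2) (A.Z 0) := by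
  refine Module.Finite.of_injective (A.cls 0) ?_
  rw [injective_iff_map_eq_zero]
  intro x hx
  exact Subtype.ext (mem_Bd_zero.1 (cls_eq_zero_iff.1 hx))

theorem chi_step (Y : SS) (A : CosMod (ZMod 2)) (N : ℕ) (h : Module.Finite (ZMod 2) (A.H 0))
    (h1 : (chi Y (Q1 A)).Surj N) : (chi Y A).Surj N := by
  have := finite_Z0 A h
  exact (chiSES Y (ses1 A)).surj_B (chi_const Y (A.Z 0) N).2 h1 (chi_const Y (A.Z 0) (N + 1)).1

/-- **the Künneth map is surjective for coefficients of finite type** -/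
theorem chi_surj (Y : SS) (N : ℕ) : ∀ A : CosMod (ZMod 2),
    (∀ j ≤ N, Module.Finite (ZMod 2) (A.H j)) → (chi Y A).Surj N := by
  induction N with
  | zero =>
    intro A hA
    refine chi_step Y A 0 (hA 0 le_rfl) ?_
    refine Hom.surj_of_H_zero fun F hF => mem_Bd_zero.2 ?_
    exact fnS_zero_zero Y (fun x hx => mem_Bd_zero.1 (Q1_zero A hx)) F hF
  | succ N ih =>
    intro A hA
    refine chi_step Y A (N + 1) (hA 0 (Nat.zero_le _)) ?_
    have hQ := Q1_zero A
    have hfin : ∀ j ≤ N, Module.Finite (ZMod 2) ((Q2 (Q1 A)).H j) := by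
      intro j hj
      have := hA (j + 1) (by omega)
      have : Module.Finite (ZMod 2) ((Q1 A).H (j + 1)) :=
        Module.Finite.of_surjective _ (ses1_surj A (j + 1))
      exact Module.Finite.of_injective _ (ses2_bij hQ j).1
    have h1 := ih (Q2 (Q1 A)) hfin
    have hP : ∀ j, ∀ x : (fnS Y (PD (Q1 A))).H j, x = 0 := fun j => H_eq_zero_iff.2
      (Z_le_Bd_of_prism (fnS.prism Y (PDprism (Q1 A)))
        (fun p F => funext fun y => PDprism_c1 (Q1 A) p (F y))
        (fun p F => funext fun y => PDprism_c0 (Q1 A) p (F y)) j)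
    intro z
    obtain ⟨y, rfl⟩ := ((fnS.ses Y (ses2 hQ)).exact_A N z).1 (hP (N + 1) _)
    obtain ⟨w, rfl⟩ := h1 y
    exact ⟨_, (chiSES Y (ses2 hQ)).conn N w⟩

/-! ### products -/

theorem mapH_toFnF (X Y : SS) {n m N : ℕ} (h : N = n + m) (x : (SS.F (ZMod 2) X).H n)
    (y : (SS.F (ZMod 2) Y).H m) :
    (toFnF X Y).mapH N ((mulF (ZMod 2) (X.prod Y)).cupH h (((SS.fst X Y).pull (R := ZMod 2)).mapH n x)
      (((SS.snd X Y).pull (R := ZMod 2)).mapH m y)) =
      (chi Y (SS.F (ZMod 2) X)).mapH N (crH n m N x y) := by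
  rw [crH_eq_cupH h]
  have e1 : (chi Y (SS.F (ZMod 2) X)).mapH N
      ((Bil.univ (SS.F (ZMod 2) X) (SS.F (ZMod 2) Y)).cupH h x y) =
      (nuB Y (SS.F (ZMod 2) X)).cupH h ((Hom.id _).mapH n x) ((Hom.id _).mapH m y) :=
    Bil.cupH_nat (Bil.univ (SS.F (ZMod 2) X) (SS.F (ZMod 2) Y)) (nuB Y (SS.F (ZMod 2) X))
      (Hom.id _) (Hom.id _) (chi Y (SS.F (ZMod 2) X)) (fun _ _ _ => rfl) h x y
  rw [e1, Hom.mapH_id, Hom.mapH_id]
  have e2 : ∀ (x : (SS.F (ZMod 2) X).H n) (y : (SS.F (ZMod 2) Y).H m),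
      (toFnF X Y).mapH N ((mulF (ZMod 2) (X.prod Y)).cupH h
        (((SS.fst X Y).pull (R := ZMod 2)).mapH n x)
        (((SS.snd X Y).pull (R := ZMod 2)).mapH m y)) = (nuB Y (SS.F (ZMod 2) X)).cupH h x y := by
    intro x y
    induction x using H_ind with
    | h x =>
      induction y using H_ind with
      | h y =>
        rw [Hom.mapH_cls, Hom.mapH_cls, Bil.cupH_cls, Hom.mapH_cls, Bil.cupH_cls]
        congr 1
        refine Subtype.ext ?_
        funext b a
        exact mul_comm _ _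
  exact e2 x y

end Vale.Agent.P263.FR

end
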